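import Vale.Agent.P018.R.Main

namespace Vale.Agent.Results.P018.AllDMinusTwo

open Vale.Agent.P018

theorem result :
    Asymp 4 2 ∧
    (∀ d k : ℕ, 4 ≤ d → d ≤ k + 2 → Asymp d k) ∧
    (∀ d k : ℕ, 5 ≤ d → d < 2 * k → Asymp d k) ∧
    (∀ ε : ℝ, 0 < ε → ∃ d0 : ℕ, ∀ d k : ℕ, d0 ≤ d → (1 / 4 + ε) * (d : ℝ) ≤ (k : ℝ) →
      Asymp d k) :=
  ⟨asymp42, asymp_sub_two, asymp_gt_half, asymp_quarter⟩

end Vale.Agent.Results.P018.AllDMinusTwo
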